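import Vale.Agent.P181.GP.Spec
import Vale.Agent.P181.PM.Root
import Mathlib.Algebra.MvPolynomial.Funext
import Mathlib.Tactic

/-!
P181, graph power map theorem, row KEY.
-/

set_option autoImplicit false

namespace Vale.Agent.P181.H304.GP

open Finset Vale.Agent.P181 Vale.Agent.P181.GP

/-- The coefficient of `ε ^ m` in one slot. -/
noncomputable def Cf {A : Type} [CommRing A] [Algebra ℂ A] {a : ℕ} (g : Polynomial ℂ) (N : ℕ)
    (φ f3 : A) (h : Fin a → A) (m : Fin a → ℕ) : A :=
  if (∑ i, m i) ≤ N then
    (g.coeff (∑ i, m i) * (Nat.multinomial univ m : ℂ)) •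
      (f3 * ((∏ i, h i ^ m i) * φ ^ (N - ∑ i, m i)))
  else 0

/-- Expansion of one slot. -/
lemma slot {A : Type} [CommRing A] [Algebra ℂ A] {a : ℕ} (g : Polynomial ℂ) (N : ℕ)
    (φ f3 : A) (h : Fin a → A) (e : Fin a → ℂ) :
    f3 * ∑ j ∈ range (N + 1), g.coeff j • ((∑ t, e t • h t) ^ j * φ ^ (N - j)) =
      ∑ m ∈ Fintype.piFinset (fun _ : Fin a => range (N + 1)),
        (∏ i, e i ^ m i) • Cf g N φ f3 h m := by
  classical
  have h1 : ∀ j ∈ range (N + 1), f3 * (g.coeff j • ((∑ t, e t • h t) ^ j * φ ^ (N - j))) =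
      ∑ m ∈ piAntidiag univ j, (∏ i, e i ^ m i) • Cf g N φ f3 h m := by
    intro j hj
    rw [sum_pow_eq_sum_piAntidiag, sum_mul, smul_sum, mul_sum]
    refine sum_congr rfl fun m hm => ?_
    have hm2 : ∑ i, m i = j := (mem_piAntidiag.1 hm).1
    have hj2 : j ≤ N := by
      have := mem_range.1 hj
      omega
    rw [Cf, hm2, if_pos hj2]
    have h2 : ∏ i, (e i • h i) ^ m i = (∏ i, e i ^ m i) • ∏ i, h i ^ m i := by
      rw [← prod_smul]
      exact prod_congr rfl fun i _ => smul_pow _ _ _
    rw [h2]
    simp only [Algebra.smul_def, map_mul, map_natCast]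
    ring
  rw [mul_sum, sum_congr rfl h1]
  have h3 : ∑ m ∈ Fintype.piFinset (fun _ : Fin a => range (N + 1)),
        (∏ i, e i ^ m i) • Cf g N φ f3 h m =
      ∑ m ∈ (Fintype.piFinset (fun _ : Fin a => range (N + 1))).filter
          (fun m => ∑ i, m i ∈ range (N + 1)),
        (∏ i, e i ^ m i) • Cf g N φ f3 h m := by
    rw [sum_filter]
    refine sum_congr rfl fun m _ => ?_
    split_ifs with h4
    · rfl
    · rw [Cf, if_neg, smul_zero]
      intro h5
      exact h4 (mem_range.2 (by omega))
  rw [h3, ← sum_fiberwise_of_maps_to (g := fun m : Fin a → ℕ => ∑ i, m i) (t := range (N + 1))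
    (fun m hm => (mem_filter.1 hm).2)]
  refine sum_congr rfl fun j hj => ?_
  refine sum_congr ?_ fun _ _ => rfl
  ext m
  simp only [mem_piAntidiag, mem_filter, Fintype.mem_piFinset, mem_range]
  constructor
  · rintro ⟨h5', -⟩
    have h5 : ∑ i, m i = j := h5'
    refine ⟨⟨fun i => ?_, ?_⟩, h5'⟩
    · have := single_le_sum (f := m) (fun _ _ => Nat.zero_le _) (mem_univ i)
      have := mem_range.1 hj
      omega
    · have := mem_range.1 hj
      omega
  · rintro ⟨-, h5⟩
    exact ⟨h5, fun i _ => mem_univ i⟩

theorem rowKEY : RowKEY := by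
  classical
  intro A _ _ a s q hs hq S F hsym hS φ f2 h hmem hdiv
  obtain ⟨p, hpd, -, hpr⟩ := PM.exists_root q hq s
  obtain ⟨hc1, hc2⟩ := PM.root_coeff hpr
  -- the elements of `S`
  have hf : ∀ e : Fin a → ℂ, f2 * ∑ j ∈ range (s + 1),
      p.coeff j • ((∑ t, e t • h t) ^ j * φ ^ (s - j)) ∈ S := by
    intro e
    rw [mul_sum]
    refine S.sum_mem fun j hj => ?_
    rw [Fintype.sum_pow, sum_mul, smul_sum, mul_sum]
    refine S.sum_mem fun w _ => ?_
    have h1 : f2 * (p.coeff j • ((∏ i, e (w i) • h (w i)) * φ ^ (s - j))) =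
        (p.coeff j * ∏ i, e (w i)) • (f2 * ((∏ i, h (w i)) * φ ^ (s - j))) := by
      rw [prod_smul]
      simp only [Algebra.smul_def, map_mul]
      ring
    rw [h1]
    exact S.smul_mem _ (hmem j (by have := mem_range.1 hj; omega) w)
  -- the relation in all `ε`
  set N := s * q with hN
  set M := Fintype.piFinset (fun _ : Fin a => range (N + 1)) with hM
  have hrel : ∀ e : Fin a → ℂ,
      ∑ r ∈ Fintype.piFinset (fun _ : Fin a => M),
        (∏ t, ∏ i, e i ^ r t i) * F (fun t => Cf (p ^ q) N φ (f2 ^ q) h (r t)) = 0 := by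
    intro e
    have h1 := hS _ (hf e)
    have h2 : (f2 * ∑ j ∈ range (s + 1),
        p.coeff j • ((∑ t, e t • h t) ^ j * φ ^ (s - j))) ^ q =
        ∑ m ∈ M, (∏ i, e i ^ m i) • Cf (p ^ q) N φ (f2 ^ q) h m := by
      rw [mul_pow, PM.hom_pow p hpd, slot]
    rw [h2, F.map_sum_finset] at h1
    rw [← h1]
    refine sum_congr rfl fun r _ => ?_
    rw [F.map_smul_univ, smul_eq_mul]
  -- polynomial identity
  have hpol : (∑ r ∈ Fintype.piFinset (fun _ : Fin a => M),
      MvPolynomial.monomial (Finsupp.equivFunOnFinite.symm (fun i => ∑ t, r t i))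
        (F (fun t => Cf (p ^ q) N φ (f2 ^ q) h (r t)))) = (0 : MvPolynomial (Fin a) ℂ) := by
    apply MvPolynomial.funext
    intro e
    rw [map_sum, map_zero, ← hrel e]
    refine sum_congr rfl fun r _ => ?_
    rw [MvPolynomial.eval_monomial, mul_comm]
    congr 1
    rw [Finsupp.prod_fintype _ _ (fun i => by simp), prod_comm]
    refine prod_congr rfl fun i _ => ?_
    rw [Finsupp.equivFunOnFinite_symm_apply_apply, prod_pow_eq_pow_sum]
  have hcoef := congrArg (MvPolynomial.coeff (Finsupp.equivFunOnFinite.symm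
    (fun _ : Fin a => 1))) hpol
  rw [MvPolynomial.coeff_sum, MvPolynomial.coeff_zero] at hcoef
  simp only [MvPolynomial.coeff_monomial, Finsupp.equivFunOnFinite.symm.injective.eq_iff] at hcoef
  rw [← sum_filter] at hcoef
  -- the value at a permutation
  set D : Fin a → A := fun t => f2 ^ q * (h t * φ ^ (s * q - 1)) with hD
  have hval : ∀ r ∈ (Fintype.piFinset (fun _ : Fin a => M)).filter
      (fun r => (fun i => ∑ t, r t i) = fun _ : Fin a => 1),
      F (fun t => Cf (p ^ q) N φ (f2 ^ q) h (r t)) ≠ 0 →
      ∃ σ : Equiv.Perm (Fin a), r = fun t => Pi.single (σ t) 1 := by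
    intro r hr hne
    have h1 : ∀ i, ∑ t, r t i = 1 := fun i => congrFun (mem_filter.1 hr).2 i
    have hle : ∀ t i, r t i ≤ 1 := by
      intro t i
      rw [← h1 i]
      exact single_le_sum (f := fun t => r t i) (fun _ _ => Nat.zero_le _) (mem_univ t)
    -- every slot has size at most one
    have hsz : ∀ t, ∑ i, r t i ≤ 1 := by
      intro t
      by_contra hcon
      push Not at hcon
      have hN2 : ∑ i, r t i ≤ N := by
        by_contra h3
        apply hne
        apply F.map_coord_zero t
        rw [Cf, if_neg h3]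
      rcases le_or_gt (∑ i, r t i) s with h4 | h4
      · apply hne
        apply F.map_coord_zero t
        rw [Cf, if_pos hN2, hc2 _ hcon h4, zero_mul, zero_smul]
      · apply hne
        refine hdiv _ t (univ.filter (fun i => r t i = 1)) ?_ ?_
        · have h5 : (univ.filter (fun i => r t i = 1)).card = ∑ i, r t i := by
            rw [card_filter]
            refine sum_congr rfl fun i _ => ?_
            have := hle t i
            split_ifs with h6
            · exact h6.symm
            · omega
          omega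
        · rw [Cf, if_pos hN2]
          have h5 : ∏ j ∈ univ.filter (fun i => r t i = 1), h j = ∏ i, h i ^ r t i := by
            rw [prod_filter]
            refine prod_congr rfl fun i _ => ?_
            have := hle t i
            split_ifs with h6
            · rw [h6, pow_one]
            · have h7 : r t i = 0 := by omega
              rw [h7, pow_zero]
          rw [h5, Algebra.smul_def]
          exact ⟨algebraMap ℂ A ((p ^ q).coeff (∑ i, r t i) *
            (Nat.multinomial univ (r t) : ℂ)) * f2 ^ q * φ ^ (N - ∑ i, r t i), by ring⟩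
    have htot : ∑ t, ∑ i, r t i = a := by
      rw [sum_comm, sum_congr rfl fun i _ => h1 i]
      simp
    have hsz1 : ∀ t, ∑ i, r t i = 1 := by
      by_contra hcon
      push Not at hcon
      obtain ⟨t0, ht0⟩ := hcon
      have h2 : ∑ t, ∑ i, r t i < ∑ _t : Fin a, 1 :=
        sum_lt_sum (fun t _ => hsz t) ⟨t0, mem_univ _, lt_of_le_of_ne (hsz t0) ht0⟩
      rw [htot] at h2
      simp at h2
    have hex : ∀ t, ∃ i, r t i = 1 := by
      intro t
      by_contra hcon
      push Not at hcon
      have h2 : ∑ i, r t i = 0 := by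
        refine sum_eq_zero fun i _ => ?_
        have := hle t i
        have := hcon i
        omega
      rw [hsz1 t] at h2
      exact one_ne_zero h2
    choose g hg using hex
    have hinj : Function.Injective g := by
      intro t t' htt
      by_contra hne2
      have h2 : 2 ≤ ∑ u, r u (g t) := by
        calc 2 = r t (g t) + r t' (g t) := by rw [hg t, htt, hg t']
          _ = ∑ u ∈ {t, t'}, r u (g t) :=
            (sum_pair (f := fun u => r u (g t)) hne2).symm
          _ ≤ ∑ u, r u (g t) := sum_le_sum_of_subset (subset_univ _)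
      rw [h1] at h2
      omega
    refine ⟨Equiv.ofBijective g (Finite.injective_iff_bijective.1 hinj), ?_⟩
    funext t i
    simp only [Equiv.ofBijective_apply]
    by_cases hi : i = g t
    · rw [hi, Pi.single_eq_same, hg]
    · rw [Pi.single_eq_of_ne hi]
      by_contra h2
      have h3 : r t i = 1 := by
        have := hle t i
        omega
      have h4 : 2 ≤ ∑ u, r t u := by
        calc 2 = r t i + r t (g t) := by rw [hg t, h3]
          _ = ∑ u ∈ {i, g t}, r t u := (sum_pair hi).symm
          _ ≤ ∑ u, r t u := sum_le_sum_of_subset (subset_univ _)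
      rw [hsz1] at h4
      omega
  have hsq : 1 ≤ N := Nat.mul_pos hs hq
  have hpos : ∀ σ : Equiv.Perm (Fin a),
      F (fun t => Cf (p ^ q) N φ (f2 ^ q) h (Pi.single (σ t) 1)) = F D := by
    intro σ
    rw [← hsym σ D]
    congr 1
    funext t
    have h1 : ∑ i, (Pi.single (σ t) 1 : Fin a → ℕ) i = 1 := by
      rw [sum_pi_single' , if_pos (mem_univ _)]
    rw [Cf, h1, if_pos hsq, hc1 hs, one_mul]
    have h2 : ∏ i, h i ^ (Pi.single (σ t) 1 : Fin a → ℕ) i = h (σ t) := by
      rw [prod_eq_single (σ t)]
      · rw [Pi.single_eq_same, pow_one]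
      · intro i _ hi
        rw [Pi.single_eq_of_ne hi, pow_zero]
      · intro h3
        exact absurd (mem_univ _) h3
    have h3 : Nat.multinomial univ (Pi.single (σ t) 1 : Fin a → ℕ) = 1 := by
      have h4 := Nat.multinomial_spec univ (Pi.single (σ t) 1 : Fin a → ℕ)
      rw [h1] at h4
      have h5 : ∏ i, ((Pi.single (σ t) 1 : Fin a → ℕ) i).factorial = 1 := by
        refine prod_eq_one fun i _ => ?_
        by_cases hi : i = σ t
        · rw [hi, Pi.single_eq_same, Nat.factorial_one]
        · rw [Pi.single_eq_of_ne hi, Nat.factorial_zero]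
      rw [h5, one_mul, Nat.factorial_one] at h4
      exact h4
    rw [h2, h3, Nat.cast_one, one_smul]
  -- the sum over permutations
  have hfin : ∑ r ∈ (Fintype.piFinset (fun _ : Fin a => M)).filter
      (fun r => (fun i => ∑ t, r t i) = fun _ : Fin a => 1),
      F (fun t => Cf (p ^ q) N φ (f2 ^ q) h (r t)) =
      ∑ _σ : Equiv.Perm (Fin a), F D := by
    symm
    refine sum_of_injOn (fun σ : Equiv.Perm (Fin a) => fun t => (Pi.single (σ t) 1 : Fin a → ℕ))
      ?_ ?_ ?_ ?_
    · intro σ _ τ _ hστ
      ext t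
      have h1 := congrFun hστ t
      by_contra h2
      have h3 := congrFun h1 (σ t)
      simp only [Pi.single_eq_same] at h3
      rw [Pi.single_eq_of_ne] at h3
      · exact one_ne_zero h3
      · intro h4
        exact h2 (congrArg Fin.val h4)
    · intro σ _
      simp only [coe_filter, Set.mem_ofPred_eq, Fintype.mem_piFinset, hM, mem_range]
      refine ⟨fun t i => ?_, ?_⟩
      · by_cases hi : i = σ t
        · rw [hi, Pi.single_eq_same]
          omega
        · rw [Pi.single_eq_of_ne hi]
          omega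
      · funext i
        rw [sum_eq_single (σ.symm i)]
        · simp
        · intro t _ ht
          rw [Pi.single_eq_of_ne]
          intro h3
          exact ht (by rw [h3]; simp)
        · intro h3
          exact absurd (mem_univ _) h3
    · intro r hr hnot
      by_contra hne
      obtain ⟨σ, hσ⟩ := hval r hr hne
      exact hnot ⟨σ, by simp, hσ.symm⟩
    · intro σ _
      exact (hpos σ).symm
  rw [hfin, sum_const, nsmul_eq_mul, mul_eq_zero] at hcoef
  rcases hcoef with h0 | h0
  · exfalso
    rw [Nat.cast_eq_zero, card_eq_zero] at h0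
    exact absurd (h0 ▸ mem_univ (1 : Equiv.Perm (Fin a))) (notMem_empty _)
  · exact h0

end Vale.Agent.P181.H304.GP
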