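import Mathlib.Analysis.SpecialFunctions.Log.Base
import Mathlib.Analysis.Complex.ExponentialBounds
import Mathlib.Tactic

/-!
P181: numbers for `b = q a + u` with special groups in almost full columns.
-/

set_option autoImplicit false

namespace Vale.Agent.P181.H304.LK

theorem numLK {a q s u : ℕ} (hs : 1 ≤ s) (hq : 60 * (s + 1) ≤ q) (hu : u < a) (ha2 : 2 ≤ a)
    (ha : 10 ^ 6 * (s : ℝ) ^ 13 * (q : ℝ) ^ 6 * Real.log a ≤ a) :
    1400 * s ^ 12 * q ^ 4 ≤ a ∧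
    (∃ D : ℕ, 30000 * (s : ℝ) ^ 12 * (q : ℝ) ^ 6 * Real.log a ≤ D ∧
      (a / (24 * (s + 1)) + 1) + a / (12 * (s + 1)) + D ≤ a / (5 * (s + 1))) ∧
    u ≤ 24 * (s + 1) * (a / (24 * (s + 1)) + 1) ∧
    a / (12 * (s + 1)) < a ∧
    24 * (s + 1) * (a + a / (12 * (s + 1))) ≤ 25 * (s + 1) * a ∧
    2 * ((s + 1) * (q * a)) * (a / (5 * (s + 1)) + Nat.log 2 a + 1) ≤
      (a + a / (12 * (s + 1))) * (q * a + u - 24 * (s + 1) * (a + a / (12 * (s + 1)))) ∧
    (∀ m, a / (5 * (s + 1)) < m + (a / (24 * (s + 1)) + 1) → m < a →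
      a / (40 * (s + 1)) * (a + a / (12 * (s + 1))) <
        (m + 1) * (a + a / (12 * (s + 1)) + 1 - (m + (a / (24 * (s + 1)) + 1)))) := by
  have haR : (2 : ℝ) ≤ a := by exact_mod_cast ha2
  have hlog : (1 / 2 : ℝ) ≤ Real.log a := by
    have h1 := Real.log_le_log (by norm_num : (0 : ℝ) < 2) haR
    have h2 := Real.log_two_gt_d9
    linarith
  have hsR : (1 : ℝ) ≤ s := by exact_mod_cast hs
  have hq1 : 120 ≤ q := by omega
  have hqR : (120 : ℝ) ≤ q := by exact_mod_cast hq1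
  have hq6 : (1 : ℝ) ≤ (q : ℝ) ^ 6 := one_le_pow₀ (by linarith)
  have hs12 : (1 : ℝ) ≤ (s : ℝ) ^ 12 := one_le_pow₀ hsR
  -- `T = s ^ 12 q ^ 6 log a`
  obtain ⟨T, hT⟩ : ∃ T : ℝ, T = (s : ℝ) ^ 12 * (q : ℝ) ^ 6 * Real.log a := ⟨_, rfl⟩
  have hsq : (1 : ℝ) ≤ (s : ℝ) ^ 12 * (q : ℝ) ^ 6 := by nlinarith
  have hT1 : 1 / 2 ≤ T := by
    rw [hT]
    nlinarith
  have hTl : Real.log a ≤ T := by
    rw [hT]
    nlinarith
  have haT : 10 ^ 6 * (s : ℝ) * T ≤ a := by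
    rw [hT]
    calc 10 ^ 6 * (s : ℝ) * ((s : ℝ) ^ 12 * (q : ℝ) ^ 6 * Real.log a) =
        10 ^ 6 * (s : ℝ) ^ 13 * (q : ℝ) ^ 6 * Real.log a := by ring
      _ ≤ (a : ℝ) := ha
  have hsT : T ≤ (s : ℝ) * T := by nlinarith
  have hsT2 : (s : ℝ) * (1 / 2) ≤ (s : ℝ) * T := by nlinarith
  -- natural numbers
  obtain ⟨κ, hκ⟩ : ∃ κ, κ = s + 1 := ⟨_, rfl⟩
  have hκ2 : 2 ≤ κ := by omega
  have hκs : (κ : ℝ) ≤ 2 * s := by
    rw [hκ]
    push_cast
    linarith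
  rw [← hκ] at hq ⊢
  obtain ⟨w, hw⟩ : ∃ w, w = a / (24 * κ) := ⟨_, rfl⟩
  obtain ⟨y, hy⟩ : ∃ y, y = a / (12 * κ) := ⟨_, rfl⟩
  obtain ⟨x, hx⟩ : ∃ x, x = a / (5 * κ) := ⟨_, rfl⟩
  obtain ⟨d, hd⟩ : ∃ d, d = a / (40 * κ) := ⟨_, rfl⟩
  obtain ⟨LG, hLG⟩ : ∃ LG, LG = Nat.log 2 a := ⟨_, rfl⟩
  rw [← hw, ← hy, ← hx, ← hd, ← hLG]
  have hw1 : 24 * κ * w ≤ a := by rw [hw]; exact Nat.mul_div_le a _
  have hw2 : a < 24 * κ * (w + 1) := by rw [hw]; exact Nat.lt_mul_div_succ a (by omega)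
  have hy1 : 12 * κ * y ≤ a := by rw [hy]; exact Nat.mul_div_le a _
  have hy2 : 2 * w ≤ y := by
    rw [hy, Nat.le_div_iff_mul_le (by omega)]
    calc 2 * w * (12 * κ) = 24 * κ * w := by ring
      _ ≤ a := hw1
  have hx1 : 5 * κ * x ≤ a := by rw [hx]; exact Nat.mul_div_le a _
  have hx2 : a < 5 * κ * (x + 1) := by rw [hx]; exact Nat.lt_mul_div_succ a (by omega)
  have hyx : y ≤ x := by
    rw [hx, Nat.le_div_iff_mul_le (by omega)]
    calc y * (5 * κ) ≤ y * (12 * κ) := Nat.mul_le_mul_left y (by omega)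
      _ = 12 * κ * y := by ring
      _ ≤ a := hy1
  have hd1 : 40 * κ * d ≤ a := by rw [hd]; exact Nat.mul_div_le a _
  have hy24 : 24 * y ≤ a := by
    calc 24 * y = 12 * 2 * y := by ring
      _ ≤ 12 * κ * y := Nat.mul_le_mul_right y (Nat.mul_le_mul_left 12 hκ2)
      _ ≤ a := hy1
  have h24 : 24 * κ * (a + y) ≤ 25 * κ * a := by
    have h1 : 24 * κ * (a + y) = 24 * κ * a + 2 * (12 * κ * y) := by ring
    have h2 : 2 * a ≤ κ * a := Nat.mul_le_mul_right a hκ2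
    have h3 : 25 * κ * a = 24 * κ * a + κ * a := by ring
    omega
  -- the logarithm
  have hLGR : (LG : ℝ) ≤ 2 * Real.log a := by
    have h1 : (LG : ℝ) ≤ Real.logb 2 a := by
      rw [hLG]
      exact_mod_cast Real.natLog_le_logb a 2
    rw [Real.logb] at h1
    have h2 : (1 / 2 : ℝ) ≤ Real.log 2 := by
      have := Real.log_two_gt_d9
      linarith
    have h3 : Real.log a / Real.log 2 ≤ 2 * Real.log a := by
      rw [div_le_iff₀ (by linarith)]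
      nlinarith
    linarith
  have hLG1 : 1000 * (κ * (LG + 1)) ≤ a := by
    have h1 : ((1000 * (κ * (LG + 1)) : ℕ) : ℝ) ≤ a := by
      push_cast
      have h2 : (κ : ℝ) * ((LG : ℝ) + 1) ≤ 2 * s * (4 * T) := by
        apply mul_le_mul hκs _ (by positivity) (by linarith)
        linarith
      nlinarith
    exact_mod_cast h1
  refine ⟨?_, ?_, ?_, ?_, h24, ?_, ?_⟩
  · have h1 : ((1400 * s ^ 12 * q ^ 4 : ℕ) : ℝ) ≤ a := by
      push_cast
      have h2 : (q : ℝ) ^ 4 ≤ (q : ℝ) ^ 6 := pow_le_pow_right₀ (by linarith) (by norm_num)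
      have h3 : (s : ℝ) ^ 12 * (q : ℝ) ^ 4 ≤ (s : ℝ) ^ 12 * (q : ℝ) ^ 6 :=
        mul_le_mul_of_nonneg_left h2 (by positivity)
      have h4 : (s : ℝ) ^ 12 * (q : ℝ) ^ 6 * (1 / 2) ≤ T := by
        rw [hT]
        exact mul_le_mul_of_nonneg_left hlog (by positivity)
      have h5 : (1400 : ℝ) * (s : ℝ) ^ 12 * (q : ℝ) ^ 4 ≤ 2800 * T := by nlinarith
      nlinarith
    exact_mod_cast h1
  · refine ⟨⌈30000 * (s : ℝ) ^ 12 * (q : ℝ) ^ 6 * Real.log a⌉₊, Nat.le_ceil _, ?_⟩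
    obtain ⟨D, hD⟩ : ∃ D, D = ⌈30000 * (s : ℝ) ^ 12 * (q : ℝ) ^ 6 * Real.log a⌉₊ := ⟨_, rfl⟩
    rw [← hD]
    have hDT : (D : ℝ) ≤ 30000 * T + 1 := by
      have h1 : 30000 * (s : ℝ) ^ 12 * (q : ℝ) ^ 6 * Real.log a = 30000 * T := by
        rw [hT]
        ring
      rw [hD, h1]
      exact (Nat.ceil_lt_add_one (by linarith)).le
    have h2 : 40 * (κ * (D + 2)) ≤ 3 * a := by
      have h3 : ((40 * (κ * (D + 2)) : ℕ) : ℝ) ≤ ((3 * a : ℕ) : ℝ) := by
        push_cast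
        have h4 : (κ : ℝ) * ((D : ℝ) + 2) ≤ 2 * s * (30000 * T + 3) := by
          apply mul_le_mul hκs _ (by positivity) (by linarith)
          linarith
        nlinarith
      exact_mod_cast h3
    by_contra hcon
    push Not at hcon
    have h3 : 120 * κ * (x + 1) ≤ 120 * κ * (w + 1 + y + D) := Nat.mul_le_mul_left _ hcon
    have h4 : 120 * κ * (w + 1 + y + D) = 5 * (24 * κ * w) + 10 * (12 * κ * y) +
        120 * (κ * (D + 1)) := by ring
    have h5 : 120 * κ * (x + 1) = 24 * (5 * κ * (x + 1)) := by ring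
    have h6 : 3 * (40 * (κ * (D + 2))) = 120 * (κ * (D + 1)) + 120 * κ := by ring
    omega
  · have : u ≤ 24 * κ * (w + 1) := by omega
    exact this
  · omega
  · obtain ⟨Y, hY⟩ : ∃ Y, Y = q * a := ⟨_, rfl⟩
    obtain ⟨M, hM⟩ : ∃ M, M = 24 * κ * (a + y) := ⟨_, rfl⟩
    rw [← hY, ← hM]
    rw [← hM] at h24
    have h1 : 12 * M ≤ 5 * Y := by
      have h2 : 60 * κ * a ≤ Y := by
        rw [hY]
        exact Nat.mul_le_mul_right a hq
      have h3 : 12 * (25 * κ * a) = 5 * (60 * κ * a) := by ring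
      omega
    have h2 : a * (Y - M) ≤ (a + y) * (Y + u - M) :=
      Nat.mul_le_mul (by omega) (by omega)
    refine le_trans ?_ h2
    have e1 : 1000 * (2 * (κ * Y) * (x + LG + 1)) =
        400 * (Y * (5 * κ * x)) + 2 * (Y * (1000 * (κ * (LG + 1)))) := by ring
    have e2 : Y * (5 * κ * x) ≤ Y * a := Nat.mul_le_mul_left Y hx1
    have e3 : Y * (1000 * (κ * (LG + 1))) ≤ Y * a := Nat.mul_le_mul_left Y hLG1
    have e4 : 12 * (a * (Y - M)) = a * (12 * (Y - M)) := by ring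
    have e5 : a * (7 * Y) ≤ a * (12 * (Y - M)) := Nat.mul_le_mul_left a (by omega)
    have e6 : a * (7 * Y) = 7 * (Y * a) := by ring
    omega
  · intro m hm hma
    have h1 : a + y + 1 - (m + (w + 1)) = (a - (m + 1)) + (y + 1 - w) := by omega
    rw [h1]
    obtain ⟨p, hp⟩ : ∃ p, p = a - (m + 1) := ⟨_, rfl⟩
    obtain ⟨c, hc⟩ : ∃ c, c = y + 1 - w := ⟨_, rfl⟩
    rw [← hp, ← hc]
    have hmc : c ≤ m + 1 := by omega
    have hpa : p + (m + 1) = a := by omega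
    have hcw : w + 1 ≤ c := by omega
    -- `(m + 1) * (p + c) ≥ a * c`
    have h2 : a * c ≤ (m + 1) * (p + c) := by
      have h3 : a * c = p * c + (m + 1) * c := by rw [← hpa]; ring
      have h4 : (m + 1) * (p + c) = p * (m + 1) + (m + 1) * c := by ring
      have h5 : p * c ≤ p * (m + 1) := Nat.mul_le_mul_left p hmc
      omega
    refine lt_of_lt_of_le ?_ h2
    have h3 : d * (a + y) * (24 * κ) < a * c * (24 * κ) := by
      have h4 : a * a < a * c * (24 * κ) := by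
        calc a * a < a * (24 * κ * (w + 1)) := Nat.mul_lt_mul_of_pos_left hw2 (by omega)
          _ = a * (w + 1) * (24 * κ) := by ring
          _ ≤ a * c * (24 * κ) := Nat.mul_le_mul_right _ (Nat.mul_le_mul_left a hcw)
      have h5 : 5 * (d * (a + y) * (24 * κ)) ≤ 5 * (a * a) := by
        have h6 : 5 * (d * (a + y) * (24 * κ)) = 3 * ((40 * κ * d) * (a + y)) := by ring
        have h7 : (40 * κ * d) * (a + y) ≤ a * (a + y) := Nat.mul_le_mul_right _ hd1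
        have h8 : a * (24 * y) ≤ a * a := Nat.mul_le_mul_left a hy24
        have h9 : 24 * (a * (a + y)) = 24 * (a * a) + a * (24 * y) := by ring
        omega
      omega
    exact Nat.lt_of_mul_lt_mul_right h3

end Vale.Agent.P181.H304.LK
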