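import Vale.Agent.P181.LK.Final
import Vale.Agent.P181.H304.LKNUM

/-!
P181: the numbers of `LK.Final` in its own form.
-/

set_option autoImplicit false

namespace Vale.Agent.P181.H304.LK

theorem numLK_spec : Vale.Agent.P181.LK.NumLK := fun _ _ _ _ h2 hs hq hu ha =>
  numLK hs hq hu h2 ha

end Vale.Agent.P181.H304.LK
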