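import Vale.Agent.P181.LK.Spec2

/-!
P181: `b = q a + u` with special groups: the local hypotheses of `RowR2` from `RowSTAR`.
-/

set_option autoImplicit false

open scoped TensorProduct

namespace Vale.Agent.P181.H304.LK

open Vale.Agent.P181 Vale.Agent.P181.H280 Vale.Agent.P181.H179 Vale.Agent.P181.H530
  Vale.Agent.P181.LK Finset

/-- Exchange of two boxes of a column. -/
lemma VV_swap {n a N : ℕ} {l : Fin N → ℕ}
    (F : MultilinearMap ℂ (fun _ : Fin a => MvPolynomial (Fin n) ℂ) ℂ)
    (e : Box l → Fin a) (t : Fin N) {u v : Fin (l t)} (huv : u ≠ v) :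
    VV F l (fun p => e (Equiv.swap (⟨t, u⟩ : Box l) ⟨t, v⟩ p)) = - VV F l e := by
  classical
  have h1 := VV_perm F e (Pi.mulSingle t (Equiv.swap u v))
  have h2 : (fun p : Box l => e ⟨p.1, (Pi.mulSingle t (Equiv.swap u v) :
      ∀ t, Equiv.Perm (Fin (l t))) p.1 p.2⟩) =
      fun p => e (Equiv.swap (⟨t, u⟩ : Box l) ⟨t, v⟩ p) := by
    funext p
    obtain ⟨t', s⟩ := p
    by_cases ht : t' = t
    · subst ht
      simp only [Pi.mulSingle_eq_same]
      by_cases hu : s = u
      · subst hu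
        rw [Equiv.swap_apply_left, Equiv.swap_apply_left]
      · by_cases hv : s = v
        · subst hv
          rw [Equiv.swap_apply_right, Equiv.swap_apply_right]
        · rw [Equiv.swap_apply_of_ne_of_ne hu hv, Equiv.swap_apply_of_ne_of_ne]
          · intro h
            exact hu (eq_of_heq (Sigma.mk.inj h).2)
          · intro h
            exact hv (eq_of_heq (Sigma.mk.inj h).2)
    · simp only [Pi.mulSingle_eq_of_ne ht]
      rw [Equiv.swap_apply_of_ne_of_ne]
      · rfl
      · intro h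
        exact ht (Sigma.mk.inj h).1
      · intro h
        exact ht (Sigma.mk.inj h).1
  have h3 : (∏ t', ((Equiv.Perm.sign ((Pi.mulSingle t (Equiv.swap u v) :
      ∀ t, Equiv.Perm (Fin (l t))) t') : ℤ) : ℂ)) = -1 := by
    rw [Finset.prod_eq_single t]
    · rw [Pi.mulSingle_eq_same, Equiv.Perm.sign_swap huv]
      simp
    · intro t' _ ht
      rw [Pi.mulSingle_eq_of_ne ht, Equiv.Perm.sign_one]
      simp
    · intro hh
      exact absurd (Finset.mem_univ _) hh
  rw [h2, h3, neg_one_mul] at h1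
  exact h1

/-- Two boxes of a special group in one column: the sum vanishes. -/
lemma sum_zero_of_two {n a u N : ℕ} {l : Fin N → ℕ}
    (F : MultilinearMap ℂ (fun _ : Fin a => MvPolynomial (Fin n) ℂ) ℂ)
    (e : Box l → Fin a) (sp : Box l → Option (Fin u))
    (h3 : ∀ k p p', sp p = some k → sp p' = some k → e p = e p' → p = p')
    (k : Fin u) (t : Fin N) {v w : Fin (l t)} (hvw : v ≠ w) (hv : sp ⟨t, v⟩ = some k)
    (hw : sp ⟨t, w⟩ = some k) :
    ∑ τ : Fin u → Equiv.Perm (Fin a), VV F l (sprU sp τ e) = 0 := by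
  classical
  set g : Fin u → Equiv.Perm (Fin a) :=
    Pi.mulSingle k (Equiv.swap (e ⟨t, v⟩) (e ⟨t, w⟩)) with hg
  have h4 : ∀ τ : Fin u → Equiv.Perm (Fin a), VV F l (sprU sp (τ * g) e) =
      - VV F l (sprU sp τ e) := by
    intro τ
    rw [← VV_swap F (sprU sp τ e) t hvw]
    congr 1
    funext p
    have hne : (⟨t, v⟩ : Box l) ≠ ⟨t, w⟩ := fun h => hvw (eq_of_heq (Sigma.mk.inj h).2)
    by_cases hpv : p = ⟨t, v⟩
    · rw [hpv, Equiv.swap_apply_left]
      simp only [sprU, hv, hw, Pi.mul_apply, hg, Pi.mulSingle_eq_same, Equiv.Perm.mul_apply,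
        Equiv.swap_apply_left]
    · by_cases hpw : p = ⟨t, w⟩
      · rw [hpw, Equiv.swap_apply_right]
        simp only [sprU, hv, hw, Pi.mul_apply, hg, Pi.mulSingle_eq_same, Equiv.Perm.mul_apply,
          Equiv.swap_apply_right]
      · rw [Equiv.swap_apply_of_ne_of_ne hpv hpw]
        rcases hsp : sp p with _ | k'
        · simp only [sprU, hsp]
        · simp only [sprU, hsp, Pi.mul_apply, Equiv.Perm.mul_apply]
          by_cases hk : k' = k
          · subst hk
            rw [hg, Pi.mulSingle_eq_same, Equiv.swap_apply_of_ne_of_ne]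
            · intro h
              exact hpv (h3 _ _ _ hsp hv h)
            · intro h
              exact hpw (h3 _ _ _ hsp hw h)
          · rw [hg, Pi.mulSingle_eq_of_ne hk]
            rfl
  have h5 : ∑ τ : Fin u → Equiv.Perm (Fin a), VV F l (sprU sp τ e) =
      ∑ τ : Fin u → Equiv.Perm (Fin a), - VV F l (sprU sp τ e) := by
    rw [← Equiv.sum_comp (Equiv.mulRight g)]
    exact Finset.sum_congr rfl fun τ _ => h4 τ
  rw [Finset.sum_neg_distrib] at h5
  exact self_eq_neg.1 h5

/-- The number of normal boxes of a row. -/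
lemma card_none {a u : ℕ} {B : Type} [Fintype B] [DecidableEq B] (e : B → Fin a)
    (sp : B → Option (Fin u)) (h2 : ∀ k i, ∃ p, sp p = some k ∧ e p = i)
    (h3 : ∀ k p p', sp p = some k → sp p' = some k → e p = e p' → p = p') {m : ℕ}
    (i : Fin a) (hrow : (univ.filter (fun p => e p = i)).card = m + u) :
    (univ.filter (fun p => e p = i ∧ sp p = none)).card = m := by
  classical
  have h4 : (univ.filter (fun p => e p = i ∧ sp p ≠ none)).card = u := by
    choose f hf1 hf2 using fun k => h2 k i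
    refine Eq.trans (Eq.symm (Finset.card_bij (s := (univ : Finset (Fin u)))
      (fun k _ => f k) ?_ ?_ ?_)) (Finset.card_fin u)
    · intro k _
      rw [Finset.mem_filter]
      refine ⟨Finset.mem_univ _, hf2 k, ?_⟩
      rw [hf1 k]
      exact Option.some_ne_none k
    · intro k _ k' _ h
      have h5 := hf1 k
      have h6 : f k = f k' := h
      rw [h6, hf1 k'] at h5
      exact (Option.some.inj h5).symm
    · intro p hp
      rw [Finset.mem_filter] at hp
      obtain ⟨-, hp1, hp2⟩ := hp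
      obtain ⟨k, hk⟩ := Option.ne_none_iff_exists'.1 hp2
      exact ⟨k, Finset.mem_univ _, h3 k _ _ (hf1 k) hk (by rw [hf2 k, hp1])⟩
  have h5 := Finset.card_filter_add_card_filter_not (s := univ.filter (fun p => e p = i))
    (fun p => sp p = none)
  rw [Finset.filter_filter, Finset.filter_filter, hrow] at h5
  have h6 : (univ.filter (fun p => e p = i ∧ ¬ sp p = none)).card = u := h4
  omega

theorem loc (hSTAR : RowSTAR) {n a q s u G D X N : ℕ} {l' : Fin N → ℕ} (hs : 1 ≤ s) (hq : 2 ≤ q)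
    (hu : u < a) (hG : G < q) (ha : 1400 * s ^ 12 * q ^ 4 ≤ a)
    (hX : 30000 * (s : ℝ) ^ 14 * (q : ℝ) ^ 6 * Real.log a ≤ X)
    (hD : 30000 * (s : ℝ) ^ 12 * (q : ℝ) ^ 6 * Real.log a ≤ D)
    (hN : N + X ≤ (s + 1) * (q * a))
    (ε : Fin (q * a + u) ≃ Gp a q u) (E : Equiv.Perm (Fin a × Fin (q * a + u)))
    (hE : ∀ i j, (E (i, j)).1 = Sum.elim Prod.fst (fun _ => i) (ε j))
    (l : (Fin a → Fin (q * a + u) → (Fin n → ℂ)) →₀ ℂ)
    (hl : arrMap a (q * a + u) E (Fin n → ℂ) (elOf l) = 0)
    (gr : Fin u → Fin G) (L : Fin G → Finset (Fin N))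
    (hdisj : ∀ g h, g ≠ h → Disjoint (L g) (L h)) {x r a2 : ℕ}
    (hr : ∀ g, (univ.filter (fun k => gr k = g)).card ≤ r)
    (hL : ∀ g, (L g).card ≤ a + a2) (ha2 : a2 < a) (hx : r + a2 + D ≤ x)
    (e : Box l' → Fin a) (hrow : ∀ i, (univ.filter (fun p => e p = i)).card = q * a + u)
    (hb : ∀ g i, x ≤ cnt e i (L g)) (sp : Box l' → Option (Fin u))
    (h1 : ∀ p k, sp p = some k → p.1 ∈ L (gr k))
    (h2 : ∀ k i, ∃ p, sp p = some k ∧ e p = i)
    (h3 : ∀ k p p', sp p = some k → sp p' = some k → e p = e p' → p = p') :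
    ∑ τ : Fin u → Equiv.Perm (Fin a), VV (fullForm l) l' (sprU sp τ e) = 0 := by
  classical
  -- two boxes of a group in one column
  by_cases hc1 : ∃ k t, ∃ v w : Fin (l' t), v ≠ w ∧ sp ⟨t, v⟩ = some k ∧ sp ⟨t, w⟩ = some k
  · obtain ⟨k, t, v, w, hvw, hv, hw⟩ := hc1
    exact sum_zero_of_two _ e sp h3 k t hvw hv hw
  -- two normal boxes with the same label in one column
  by_cases hc2 : ∃ t, ∃ v w : Fin (l' t), v ≠ w ∧ sp ⟨t, v⟩ = none ∧ sp ⟨t, w⟩ = none ∧
      e ⟨t, v⟩ = e ⟨t, w⟩
  · obtain ⟨t, v, w, hvw, hv, hw, hvw2⟩ := hc2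
    refine Finset.sum_eq_zero fun τ _ => VV_anti _ _ t hvw ?_
    simp only [sprU, hv, hw, hvw2]
  push Not at hc1 hc2
  have hkey : ∀ (k : Fin u) (p p' : Box l'), sp p = some k → sp p' = some k → p.1 = p'.1 →
      p = p' := by
    rintro k ⟨t, v⟩ ⟨t', w⟩ hp hp' h
    have h' : t = t' := h
    subst h'
    by_contra hne
    exact hc1 k t v w (fun h5 => hne (by rw [h5])) hp hp'
  -- the columns of a group
  set T : Fin u → Finset (Fin N) := fun k =>
    univ.filter (fun t : Fin N => ∃ v, sp ⟨t, v⟩ = some k) with hT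
  have hTL : ∀ k, T k ⊆ L (gr k) := by
    intro k t ht
    obtain ⟨v, hv⟩ := (Finset.mem_filter.1 ht).2
    exact h1 _ _ hv
  have hTc : ∀ k, (T k).card = a := by
    intro k
    choose f hf1 hf2 using fun i => h2 k i
    refine Eq.trans (Eq.symm (Finset.card_bij (s := (univ : Finset (Fin a)))
      (fun i _ => (f i).1) ?_ ?_ ?_)) (Finset.card_fin a)
    · intro i _
      rw [hT, Finset.mem_filter]
      exact ⟨Finset.mem_univ _, (f i).2, hf1 i⟩
    · intro i _ i' _ h
      rw [← hf2 i, ← hf2 i', hkey k _ _ (hf1 i) (hf1 i') h]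
    · intro t ht
      obtain ⟨v, hv⟩ := (Finset.mem_filter.1 ht).2
      refine ⟨e ⟨t, v⟩, Finset.mem_univ _, ?_⟩
      rw [h3 k _ _ (hf1 (e ⟨t, v⟩)) hv (hf2 _)]
  -- the columns of the normal boxes of a row
  set R : Fin G → Fin a → Finset (Fin N) := fun g i =>
    (L g).filter (fun t => ∃ w, sp ⟨t, w⟩ = none ∧ e ⟨t, w⟩ = i) with hR
  have hRc : ∀ g i, x - r ≤ (R g i).card := by
    intro g i
    have h4 : (univ.filter (fun p : Box l' => (e p = i ∧ p.1 ∈ L g) ∧ sp p = none)).card ≤
        (R g i).card := by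
      refine Finset.card_le_card_of_injOn (fun p => p.1) ?_ ?_
      · intro p hp
        rw [Finset.mem_coe, Finset.mem_filter] at hp
        obtain ⟨-, ⟨hp1, hp2⟩, hp3⟩ := hp
        rw [Finset.mem_coe, hR, Finset.mem_filter]
        exact ⟨hp2, p.2, hp3, hp1⟩
      · rintro ⟨t, v⟩ hp ⟨t', w⟩ hp' h
        have h' : t = t' := h
        subst h'
        rw [Finset.mem_coe, Finset.mem_filter] at hp hp'
        obtain ⟨-, ⟨hp1, -⟩, hp3⟩ := hp
        obtain ⟨-, ⟨hp1', -⟩, hp3'⟩ := hp'
        by_contra hne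
        exact hc2 t v w (fun h5 => hne (by rw [h5])) hp3 hp3' (by rw [hp1, hp1'])
    have h5 : (univ.filter (fun p : Box l' => (e p = i ∧ p.1 ∈ L g) ∧ ¬ sp p = none)).card ≤ r := by
      refine le_trans ?_ (hr g)
      have h6 : ∀ p : Box l', ¬ sp p = none → ∃ k, sp p = some k := fun p hp =>
        Option.ne_none_iff_exists'.1 hp
      have h7 : (univ.filter (fun p : Box l' => (e p = i ∧ p.1 ∈ L g) ∧ ¬ sp p = none)).card =
          ((univ.filter (fun p : Box l' => (e p = i ∧ p.1 ∈ L g) ∧ ¬ sp p = none)).image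
            sp).card := by
        symm
        apply Finset.card_image_of_injOn
        intro p hp p' hp' h
        rw [Finset.mem_coe, Finset.mem_filter] at hp hp'
        obtain ⟨k, hk⟩ := h6 p hp.2.2
        have h8 : sp p' = some k := by rw [← hk]; exact h.symm
        exact h3 k p p' hk h8 (by rw [hp.2.1.1, hp'.2.1.1])
      rw [h7, ← Finset.card_image_of_injective (univ.filter (fun k => gr k = g))
        (Option.some_injective _)]
      apply Finset.card_le_card
      intro y hy
      obtain ⟨p, hp, rfl⟩ := Finset.mem_image.1 hy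
      rw [Finset.mem_filter] at hp
      obtain ⟨k, hk⟩ := h6 p hp.2.2
      rw [hk, Finset.mem_image]
      refine ⟨k, ?_, rfl⟩
      rw [Finset.mem_filter]
      refine ⟨Finset.mem_univ _, ?_⟩
      by_contra hgk
      exact Finset.disjoint_left.1 (hdisj _ _ hgk) (h1 p k hk) hp.2.1.2
    have h6 := Finset.card_filter_add_card_filter_not
      (s := univ.filter (fun p : Box l' => e p = i ∧ p.1 ∈ L g)) (fun p => sp p = none)
    rw [Finset.filter_filter, Finset.filter_filter] at h6
    have h7 : x ≤ (univ.filter (fun p : Box l' => e p = i ∧ p.1 ∈ L g)).card := hb g i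
    omega
  refine hSTAR n a q s u G D X N l' hs hq hu hG ha hX hD hN ε E hE l hl e sp gr
    (fun i => card_none e sp h2 h3 i (hrow i)) h2 h3 ?_ ?_
  · intro k k' hkk hg
    by_contra hcon
    push Not at hcon
    have h4 : Disjoint (T k) (T k') := by
      rw [Finset.disjoint_left]
      intro t ht ht'
      obtain ⟨v, hv⟩ := (Finset.mem_filter.1 ht).2
      obtain ⟨w, hw⟩ := (Finset.mem_filter.1 ht').2
      exact hcon t v w hv hw
    have h5 : T k ∪ T k' ⊆ L (gr k) :=
      Finset.union_subset (hTL k) (by rw [hg]; exact hTL k')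
    have h6 := Finset.card_le_card h5
    rw [Finset.card_union_of_disjoint h4, hTc, hTc] at h6
    have := hL (gr k)
    omega
  · intro k i
    have h4 : T k ∩ R (gr k) i ⊆ univ.filter (fun t : Fin N => (∃ v, sp ⟨t, v⟩ = some k) ∧
        ∃ w, sp ⟨t, w⟩ = none ∧ e ⟨t, w⟩ = i) := by
      intro t ht
      rw [Finset.mem_inter] at ht
      rw [Finset.mem_filter]
      exact ⟨Finset.mem_univ _, (Finset.mem_filter.1 ht.1).2, (Finset.mem_filter.1 ht.2).2⟩
    refine le_trans ?_ (Finset.card_le_card h4)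
    have h5 : T k ∪ R (gr k) i ⊆ L (gr k) :=
      Finset.union_subset (hTL k) (Finset.filter_subset _ _)
    have h6 := Finset.card_le_card h5
    have h7 := Finset.card_union_add_card_inter (T k) (R (gr k) i)
    have h8 := hTc k
    have h9 := hRc (gr k) i
    have h10 := hL (gr k)
    omega

end Vale.Agent.P181.H304.LK
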