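import Vale.Agent.P181.H304.LKLOC

/-!
P181: `b = q a + u` with special groups: all values of a highest weight form in the kernel vanish,
from the rows, for given sets of long columns.
-/

set_option autoImplicit false

open scoped TensorProduct

namespace Vale.Agent.P181.H304.LK

open Vale.Agent.P181 Vale.Agent.P181.H280 Vale.Agent.P181.H179 Vale.Agent.P181.H530
  Vale.Agent.P181.LK Finset

lemma cnt_le {n a N : ℕ} {l' : Fin N → ℕ}
    (F : MultilinearMap ℂ (fun _ : Fin a => MvPolynomial (Fin n) ℂ) ℂ) (e : Box l' → Fin a)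
    (he : VV F l' e ≠ 0) (i : Fin a) (L : Finset (Fin N)) : cnt e i L ≤ L.card := by
  classical
  refine Finset.card_le_card_of_injOn (fun p => p.1) ?_ ?_
  · intro p hp
    rw [Finset.mem_coe, Finset.mem_filter] at hp
    exact hp.2.2
  · rintro ⟨t, v⟩ hp ⟨t', w⟩ hp' h
    have h' : t = t' := h
    subst h'
    rw [Finset.mem_coe, Finset.mem_filter] at hp hp'
    by_contra hne
    refine he (VV_anti F e t (u := v) (v := w) (fun h5 => hne (by rw [h5])) ?_)
    rw [hp.2.1, hp'.2.1]

lemma sum_cnt {a N : ℕ} {l' : Fin N → ℕ} (e : Box l' → Fin a) (L : Finset (Fin N)) :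
    ∑ i, cnt e i L = ∑ t ∈ L, l' t := by
  classical
  have h1 : ∑ i, cnt e i L = (univ.filter (fun p : Box l' => p.1 ∈ L)).card := by
    rw [Finset.card_eq_sum_card_fiberwise (f := e) (t := univ) (fun _ _ => Finset.mem_coe.2
      (Finset.mem_univ _))]
    refine Finset.sum_congr rfl fun i _ => ?_
    rw [cnt, Finset.filter_filter]
    congr 1
    ext p
    simp only [Finset.mem_filter, Finset.mem_univ, true_and, and_comm]
  have h2 : ∀ t ∈ (univ : Finset (Fin N)), (∑ v : Fin (l' t),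
      if ((⟨t, v⟩ : Box l').1 ∈ L) then 1 else 0) = if t ∈ L then l' t else 0 := by
    intro t _
    by_cases ht : t ∈ L
    · simp [ht]
    · simp [ht]
  rw [h1, Finset.card_filter, Fintype.sum_sigma, Finset.sum_congr rfl h2, Finset.sum_ite_mem,
    Finset.univ_inter]

lemma card_row {a N G : ℕ} {l' : Fin N → ℕ} (Z : Fin G → Finset (Box l'))
    (hZ : ∀ g h, g ≠ h → Disjoint (Z g) (Z h)) (e e0 : Box l' → Fin a)
    (h1 : ∀ p, (∀ g, p ∉ Z g) → e p = e0 p)
    (h2 : ∀ g i, ((Z g).filter (fun p => e p = i)).card = ((Z g).filter (fun p => e0 p = i)).card)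
    (i : Fin a) : (univ.filter (fun p => e p = i)).card = (univ.filter (fun p => e0 p = i)).card := by
  classical
  have h3 : ∀ f : Box l' → Fin a, (univ.filter (fun p => f p = i)).card =
      ∑ g, ((Z g).filter (fun p => f p = i)).card +
        (univ.filter (fun p => f p = i ∧ ∀ g, p ∉ Z g)).card := by
    intro f
    rw [← Finset.card_biUnion]
    · rw [← Finset.card_filter_add_card_filter_not (s := univ.filter (fun p => f p = i))
        (fun p => ∃ g, p ∈ Z g), Finset.filter_filter, Finset.filter_filter]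
      congr 2
      · ext p
        simp only [Finset.mem_filter, Finset.mem_univ, true_and, Finset.mem_biUnion]
        constructor
        · rintro ⟨h4, g, hg⟩
          exact ⟨g, hg, h4⟩
        · rintro ⟨g, hg, h4⟩
          exact ⟨h4, g, hg⟩
      · ext p
        simp only [Finset.mem_filter, Finset.mem_univ, true_and, not_exists]
    · intro g _ h _ hgh
      exact (hZ g h hgh).mono (Finset.filter_subset _ _) (Finset.filter_subset _ _)
  rw [h3 e, h3 e0]
  congr 1
  · exact Finset.sum_congr rfl fun g _ => h2 g i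
  · congr 1
    ext p
    simp only [Finset.mem_filter, Finset.mem_univ, true_and]
    constructor
    · rintro ⟨h4, h5⟩
      exact ⟨by rw [← h1 p h5, h4], h5⟩
    · rintro ⟨h4, h5⟩
      exact ⟨by rw [h1 p h5, h4], h5⟩

theorem mid (hBAL : RowBAL) (hSORT : RowSORT) (hR2 : RowR2) (hSTAR : RowSTAR)
    {n a q s u G D X N : ℕ} {l' : Fin N → ℕ} (hs : 1 ≤ s) (hq : 2 ≤ q)
    (hu : u < a) (hG : G < q) (ha : 1400 * s ^ 12 * q ^ 4 ≤ a)
    (hX : 30000 * (s : ℝ) ^ 14 * (q : ℝ) ^ 6 * Real.log a ≤ X)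
    (hD : 30000 * (s : ℝ) ^ 12 * (q : ℝ) ^ 6 * Real.log a ≤ D)
    (hN : N + X ≤ (s + 1) * (q * a))
    (ε : Fin (q * a + u) ≃ Gp a q u) (E : Equiv.Perm (Fin a × Fin (q * a + u)))
    (hE : ∀ i j, (E (i, j)).1 = Sum.elim Prod.fst (fun _ => i) (ε j))
    (l : (Fin a → Fin (q * a + u) → (Fin n → ℂ)) →₀ ℂ)
    (hl : arrMap a (q * a + u) E (Fin n → ℂ) (elOf l) = 0)
    (hdeg : IsDeg (q * a + u) (fullForm l))
    (gr : Fin u → Fin G) (L : Fin G → Finset (Fin N))
    (hdisj : ∀ g h, g ≠ h → Disjoint (L g) (L h)) {x r a2 d : ℕ} (hr1 : 1 ≤ r)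
    (hr : ∀ g, (univ.filter (fun k => gr k = g)).card ≤ r)
    (hL : ∀ g, (L g).card = a + a2) (ha2 : a2 < a) (hx : r + a2 + D ≤ x)
    (hlong : ∀ g, ∀ t1 ∈ L g, ∀ t, (∀ h, t ∉ L h) → l' t ≤ l' t1)
    (hcol : ∀ g, ∀ t ∈ L g, a ≤ l' t + d)
    (hbal : 2 * (N - G * (a + a2)) * (x + Nat.log 2 a + 1) ≤
      (a + a2) * (q * a + u - G * (a + a2)))
    (hGN : G * (a + a2) < N)
    (hsort : ∀ m, x < m + r → m < a → d * (a + a2) < (m + 1) * (a + a2 + 1 - (m + r)))
    (e : Box l' → Fin a) : VV (fullForm l) l' e = 0 := by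
  classical
  by_contra he
  have hsum : ∑ h, (L h).card = G * (a + a2) := by
    rw [Finset.sum_congr rfl fun h _ => hL h]
    simp
  obtain ⟨e0, he0, hb⟩ := hBAL n a (q * a + u) N G x l' (fullForm l) hdeg L hdisj hlong
    (fun g => by rw [hsum, hL g]; exact hbal) (by rw [hsum]; exact hGN) ⟨e, he⟩
  have hπ : ∀ g, ∃ π : Equiv.Perm (Fin a), ∀ m : Fin a, (m : ℕ) + r ≤ cnt e0 (π m) (L g) := by
    intro g
    refine hSORT a r x d (a + a2) (fun i => cnt e0 i (L g)) ?_ (fun i => hb g i) ?_ hsort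
    · intro i
      rw [← hL g]
      exact cnt_le _ e0 he0 i _
    · have h1 : ∑ i, (a + a2 - cnt e0 i (L g)) + ∑ i, cnt e0 i (L g) = a * (a + a2) := by
        rw [← Finset.sum_add_distrib]
        have h2 : ∀ i ∈ (univ : Finset (Fin a)), a + a2 - cnt e0 i (L g) + cnt e0 i (L g) =
            a + a2 := by
          intro i _
          have := cnt_le _ e0 he0 i (L g)
          rw [hL g] at this
          omega
        rw [Finset.sum_congr rfl h2]
        simp
      have h2 : a * (a + a2) ≤ ∑ i, cnt e0 i (L g) + d * (a + a2) := by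
        rw [sum_cnt]
        have h3 : ∑ _t ∈ L g, a ≤ ∑ t ∈ L g, (l' t + d) := Finset.sum_le_sum (hcol g)
        rw [Finset.sum_add_distrib, Finset.sum_const, Finset.sum_const, hL g, smul_eq_mul,
          smul_eq_mul, mul_comm, mul_comm (a + a2) d] at h3
        exact h3
      omega
  choose π hπ using hπ
  set Z : Fin G → Finset (Box l') := fun g => univ.filter (fun p => p.1 ∈ L g) with hZ
  have hZm : ∀ g (p : Box l'), p ∈ Z g ↔ p.1 ∈ L g := by
    intro g p
    rw [hZ, Finset.mem_filter]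
    simp
  have hZd : ∀ g h, g ≠ h → Disjoint (Z g) (Z h) := by
    intro g h hgh
    rw [Finset.disjoint_left]
    intro p hp hp'
    exact Finset.disjoint_left.1 (hdisj g h hgh) ((hZm g p).1 hp) ((hZm h p).1 hp')
  have hcnt : ∀ (f : Box l' → Fin a) g i, ((Z g).filter (fun p => f p = i)).card =
      cnt f i (L g) := by
    intro f g i
    rw [cnt, hZ]
    simp only [Finset.filter_filter]
    congr 1
    ext p
    simp only [Finset.mem_filter, Finset.mem_univ, true_and, and_comm]
  refine he0 (hR2 (Box l') a u G r (VV (fullForm l) l') gr Z hZd hr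
    (fun g i => cnt e0 i (L g)) e0 π hπ hr1 ?_ e0 (fun _ _ => rfl) (fun g i => hcnt e0 g i))
  intro e1 h1 h2 sp h3 h4 h5
  refine loc hSTAR hs hq hu hG ha hX hD hN ε E hE l hl gr L hdisj hr (fun g => (hL g).le) ha2 hx
    e1 ?_ ?_ sp (fun p k hp => (hZm _ p).1 (h3 p k hp)) h4 h5
  · intro i
    rw [card_row Z hZd e1 e0 h1 (fun g i => by rw [h2 g i, hcnt e0 g i]) i]
    exact VV_card hdeg he0 i
  · intro g i
    rw [← hcnt e1 g i, h2 g i]
    exact hb g i

end Vale.Agent.P181.H304.LK
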